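import Vale.Agent.Lib.P126.Duality

/-!
# P126: duality of metric entropy for pairs at bounded geometric distance

`ℝⁿ` is `EuclideanSpace ℝ (Fin n)` with its standard inner product.  For sets `A`, `B` the
number `coveringNumber A B` is the least `m` such that `A` lies in a union of `m` translates
`{x i + b : b ∈ B}` of `B` (`CoveredBy m A B`), and `polar K` is the set of all `y` with
`⟨x, y⟩ ≤ 1` for every `x` in `K`.  `r • K` is the dilate `{r x : x ∈ K}`.

The theorem: let `L` be an origin-symmetric convex body and let `K` be a set (for instance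
an origin-symmetric convex body) with `s L ⊆ K ⊆ S L`, where `0 < s ≤ S ≤ C s`.  Then

  `N(L°, 3C K°) ≤ N(K, L) ≤ N(L°, (3C)⁻¹ K°)`,

and these covering numbers are positive (so each is attained by a finite cover).  These are
the two inequalities of the duality conjecture with `b = 1` and `a = 3C`.  For homothetic
pairs `L = t K` one may take `s = S = 1/t`, `C = 1`, which gives `a = 3`, `b = 1`.

The proof is volumetric: for a symmetric convex set `M` of positive finite volume,
`(r/s)ⁿ ≤ N(r M, s M) ≤ (1 + 2 r / s)ⁿ`, applied to `M = L` and to `M = L°`.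
-/

namespace Vale.Agent.Results.P126.BoundedDistance

open Set Pointwise Vale.Agent.Lib.P126

theorem result (n : ℕ) (K L : Set (EuclideanSpace ℝ (Fin n))) (hL : IsSymConvexBody L)
    (s S C : ℝ) (hs : 0 < s) (hsS : s ≤ S) (hSC : S ≤ C * s)
    (h1 : s • L ⊆ K) (h2 : K ⊆ S • L) :
    0 < coveringNumber (polar L) ((3 * C) • polar K) ∧
      coveringNumber (polar L) ((3 * C) • polar K) ≤ coveringNumber K L ∧
      0 < coveringNumber K L ∧
      coveringNumber K L ≤ coveringNumber (polar L) ((3 * C)⁻¹ • polar K) :=
  duality_bounded_distance K L hL s S C hs hsS hSC h1 h2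

end Vale.Agent.Results.P126.BoundedDistance
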